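import Mathlib
import Crest.Prelude.Def_MultiMarginal

/-!
# S0175: transfer of the statement along a linear isometry

`Goal E s` is the body of statement S0175 with an arbitrary space `E` in place of
`EuclideanSpace ℝ (Fin d)`.  We show that `Goal` is transported by linear isometric equivalences
between finite-dimensional inner product spaces (which are automatically volume preserving), and
hence that it suffices to prove `Goal M s` for any `d`-dimensional inner product space `M`.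
-/

set_option autoImplicit false
set_option linter.unusedSectionVars false
open MeasureTheory
open scoped ENNReal ContDiff
open Crest.AnalysisR.OT

namespace Crest.Agent.Helper52.OT3

/-- The body of S0175 over an arbitrary space `E`. -/
def Goal (E : Type*) [NormedAddCommGroup E] [NormedSpace ℝ E] [MeasureSpace E] (s : ℝ) : Prop :=
  ∃ ρ : E → ℝ, (∀ x, 0 ≤ ρ x) ∧ ContDiff ℝ ∞ ρ ∧ HasCompactSupport ρ ∧
      ContDiff ℝ ∞ (fun x => Real.sqrt (ρ x)) ∧ ∫ x, ρ x = 1 ∧
      ∃ π₀ : Measure (E × E × E),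
        IsCoupling₃ (measOfDensity ρ) π₀ ∧ ∫⁻ p, tripleCost s p ∂π₀ < ⊤ ∧
        (∀ π : Measure (E × E × E), IsCoupling₃ (measOfDensity ρ) π →
          ∫⁻ p, tripleCost s p ∂π₀ ≤ ∫⁻ p, tripleCost s p ∂π) ∧
        (∀ T₂ T₃ : E → E, Measurable T₂ → Measurable T₃ →
          (measOfDensity ρ).map T₂ = measOfDensity ρ → (measOfDensity ρ).map T₃ = measOfDensity ρ →
          ∫⁻ p, tripleCost s p ∂π₀ < ∫⁻ x, tripleCost s (x, T₂ x, T₃ x) ∂(measOfDensity ρ)) ∧
        (∀ ε : ℝ≥0∞, 0 < ε → ∃ T₂ T₃ : E → E, Measurable T₂ ∧ Measurable T₃ ∧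
          (measOfDensity ρ).map T₂ = measOfDensity ρ ∧ (measOfDensity ρ).map T₃ = measOfDensity ρ ∧
          ∫⁻ x, tripleCost s (x, T₂ x, T₃ x) ∂(measOfDensity ρ) < ∫⁻ p, tripleCost s p ∂π₀ + ε)

section transfer

variable {E F : Type*}
  [NormedAddCommGroup E] [InnerProductSpace ℝ E] [FiniteDimensional ℝ E]
  [MeasurableSpace E] [BorelSpace E]
  [NormedAddCommGroup F] [InnerProductSpace ℝ F] [FiniteDimensional ℝ F]
  [MeasurableSpace F] [BorelSpace F]

/-- The measurable equivalence underlying a linear isometric equivalence. -/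
noncomputable def mequiv (e : E ≃ₗᵢ[ℝ] F) : E ≃ᵐ F := e.toHomeomorph.toMeasurableEquiv

@[simp] lemma mequiv_apply (e : E ≃ₗᵢ[ℝ] F) (x : E) : mequiv e x = e x := rfl

@[simp] lemma mequiv_symm_apply (e : E ≃ₗᵢ[ℝ] F) (y : F) : (mequiv e).symm y = e.symm y := rfl

lemma mequiv_mp (e : E ≃ₗᵢ[ℝ] F) : MeasurePreserving (mequiv e) volume volume :=
  e.measurePreserving

/-- The triple map. -/
noncomputable def mequiv₃ (e : E ≃ₗᵢ[ℝ] F) : (E × E × E) ≃ᵐ (F × F × F) :=
  (mequiv e).prodCongr ((mequiv e).prodCongr (mequiv e))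

@[simp] lemma mequiv₃_apply (e : E ≃ₗᵢ[ℝ] F) (p : E × E × E) :
    mequiv₃ e p = (e p.1, e p.2.1, e p.2.2) := rfl

lemma pairCost_map (e : E ≃ₗᵢ[ℝ] F) (s : ℝ) (x y : E) :
    pairCost s (e x) (e y) = pairCost s x y := by
  unfold pairCost
  rw [← map_sub, LinearIsometryEquiv.norm_map]

lemma tripleCost_map (e : E ≃ₗᵢ[ℝ] F) (s : ℝ) (x y z : E) :
    tripleCost s (e x, e y, e z) = tripleCost s (x, y, z) := by
  unfold tripleCost
  simp only [pairCost_map]

lemma tripleCost_mequiv₃ (e : E ≃ₗᵢ[ℝ] F) (s : ℝ) (p : E × E × E) :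
    tripleCost s (mequiv₃ e p) = tripleCost s p := by
  obtain ⟨x, y, z⟩ := p
  exact tripleCost_map e s x y z

/-- Pushing forward the measure with density `ρ` gives the measure with density `ρ ∘ e.symm`. -/
lemma measOfDensity_map (e : E ≃ₗᵢ[ℝ] F) (ρ : E → ℝ) :
    (measOfDensity ρ).map e = measOfDensity (fun y => ρ (e.symm y)) := by
  have hmp := mequiv_mp e
  change (measOfDensity ρ).map (mequiv e) = _
  ext S hS
  rw [(mequiv e).map_apply]
  unfold measOfDensity
  rw [withDensity_apply _ hS, withDensity_apply _ ((mequiv e).measurable hS)]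
  rw [← hmp.setLIntegral_comp_preimage_emb (mequiv e).measurableEmbedding]
  simp

lemma measOfDensity_map_symm (e : E ≃ₗᵢ[ℝ] F) (ρ : E → ℝ) :
    (measOfDensity (fun y => ρ (e.symm y))).map e.symm = measOfDensity ρ := by
  rw [← measOfDensity_map e ρ]
  change ((measOfDensity ρ).map (mequiv e)).map (mequiv e).symm = _
  rw [Measure.map_map (mequiv e).symm.measurable (mequiv e).measurable]
  simp

lemma isCoupling₃_map (e : E ≃ₗᵢ[ℝ] F) {μ : Measure E} {π : Measure (E × E × E)}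
    (h : IsCoupling₃ μ π) : IsCoupling₃ (μ.map e) (π.map (mequiv₃ e)) := by
  obtain ⟨h1, h2, h3⟩ := h
  have hm := (mequiv₃ e).measurable
  have he : Measurable (e : E → F) := (mequiv e).measurable
  refine ⟨?_, ?_, ?_⟩
  · rw [Measure.map_map measurable_fst hm, ← h1, Measure.map_map he measurable_fst]
    rfl
  · have hg : Measurable (fun p : F × F × F => p.2.1) := by fun_prop
    have hg' : Measurable (fun p : E × E × E => p.2.1) := by fun_prop
    rw [Measure.map_map hg hm, ← h2, Measure.map_map he hg']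
    rfl
  · have hg : Measurable (fun p : F × F × F => p.2.2) := by fun_prop
    have hg' : Measurable (fun p : E × E × E => p.2.2) := by fun_prop
    rw [Measure.map_map hg hm, ← h3, Measure.map_map he hg']
    rfl

lemma lintegral_tripleCost_map (e : E ≃ₗᵢ[ℝ] F) (s : ℝ) (π : Measure (E × E × E)) :
    ∫⁻ p, tripleCost s p ∂(π.map (mequiv₃ e)) = ∫⁻ p, tripleCost s p ∂π := by
  rw [lintegral_map_equiv]
  simp only [tripleCost_mequiv₃]

lemma mequiv₃_symm (e : E ≃ₗᵢ[ℝ] F) : (mequiv₃ e).symm = mequiv₃ e.symm := rfl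

/-- Cost of a Monge plan is invariant under conjugation. -/
lemma lintegral_monge_map (e : E ≃ₗᵢ[ℝ] F) (s : ℝ) (μ : Measure E) (T₂ T₃ : F → F) :
    ∫⁻ y, tripleCost s (y, T₂ y, T₃ y) ∂(μ.map e)
      = ∫⁻ x, tripleCost s (x, e.symm (T₂ (e x)), e.symm (T₃ (e x))) ∂μ := by
  change ∫⁻ y, tripleCost s (y, T₂ y, T₃ y) ∂(μ.map (mequiv e)) = _
  rw [lintegral_map_equiv]
  refine lintegral_congr fun x => ?_
  rw [← tripleCost_map e s x]
  simp

lemma map_conj (e : E ≃ₗᵢ[ℝ] F) (μ : Measure E) (T : F → F) (hT : Measurable T)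
    (h : (μ.map e).map T = μ.map e) :
    μ.map (fun x => e.symm (T (e x))) = μ := by
  have he : Measurable (e : E → F) := (mequiv e).measurable
  have hes : Measurable (e.symm : F → E) := (mequiv e).symm.measurable
  have h1 : μ.map (fun x => e.symm (T (e x))) = ((μ.map e).map T).map e.symm := by
    rw [Measure.map_map hes hT, Measure.map_map (hes.comp hT) he]
    rfl
  rw [h1, h, Measure.map_map hes he]
  have : (e.symm : F → E) ∘ (e : E → F) = id := by
    funext x; simp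
  rw [this, Measure.map_id]

lemma map_conj' (e : E ≃ₗᵢ[ℝ] F) (μ : Measure E) (T : E → E) (hT : Measurable T)
    (h : μ.map T = μ) :
    (μ.map e).map (fun y => e (T (e.symm y))) = μ.map e := by
  have he : Measurable (e : E → F) := (mequiv e).measurable
  have hes : Measurable (e.symm : F → E) := (mequiv e).symm.measurable
  have hc : Measurable (fun y => e (T (e.symm y))) := he.comp (hT.comp hes)
  rw [Measure.map_map hc he]
  have : (fun y => e (T (e.symm y))) ∘ (e : E → F) = (e : E → F) ∘ T := by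
    funext x; simp
  rw [this, ← Measure.map_map he hT, h]

/-- **Transfer**: the statement is transported along a linear isometric equivalence. -/
theorem Goal.transfer (e : E ≃ₗᵢ[ℝ] F) {s : ℝ} (h : Goal E s) : Goal F s := by
  obtain ⟨ρ, hρ0, hρs, hρc, hρr, hρ1, π₀, hπ₀, hfin, hmin, hstrict, happrox⟩ := h
  have he : Measurable (e : E → F) := (mequiv e).measurable
  have hes : Measurable (e.symm : F → E) := (mequiv e).symm.measurable
  have hμ : measOfDensity (fun y => ρ (e.symm y)) = (measOfDensity ρ).map e :=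
    (measOfDensity_map e ρ).symm
  have hcost₀ : ∫⁻ p, tripleCost s p ∂(π₀.map (mequiv₃ e)) = ∫⁻ p, tripleCost s p ∂π₀ :=
    lintegral_tripleCost_map e s π₀
  refine ⟨fun y => ρ (e.symm y), fun y => hρ0 _, ?_, ?_, ?_, ?_, π₀.map (mequiv₃ e), ?_, ?_, ?_, ?_, ?_⟩
  · exact hρs.comp e.symm.contDiff
  · exact hρc.comp_homeomorph e.symm.toHomeomorph
  · exact hρr.comp e.symm.contDiff
  · rw [← hρ1]
    have := (mequiv_mp e.symm).integral_comp' (f := (mequiv e.symm)) (g := ρ)
    simpa using this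
  · rw [hμ]; exact isCoupling₃_map e hπ₀
  · rw [hcost₀]; exact hfin
  · intro π hπ
    rw [hcost₀]
    have hπ' : IsCoupling₃ (measOfDensity ρ) (π.map (mequiv₃ e.symm)) := by
      have := isCoupling₃_map e.symm hπ
      rwa [measOfDensity_map_symm e ρ] at this
    calc ∫⁻ p, tripleCost s p ∂π₀ ≤ ∫⁻ p, tripleCost s p ∂(π.map (mequiv₃ e.symm)) := hmin _ hπ'
      _ = ∫⁻ p, tripleCost s p ∂π := lintegral_tripleCost_map e.symm s π
  · intro T₂ T₃ hT₂ hT₃ h₂ h₃
    rw [hcost₀, hμ, lintegral_monge_map]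
    rw [hμ] at h₂ h₃
    exact hstrict _ _ (hes.comp (hT₂.comp he)) (hes.comp (hT₃.comp he))
      (map_conj e _ T₂ hT₂ h₂) (map_conj e _ T₃ hT₃ h₃)
  · intro ε hε
    obtain ⟨T₂, T₃, hT₂, hT₃, h₂, h₃, hlt⟩ := happrox ε hε
    refine ⟨fun y => e (T₂ (e.symm y)), fun y => e (T₃ (e.symm y)),
      he.comp (hT₂.comp hes), he.comp (hT₃.comp hes), ?_, ?_, ?_⟩
    · rw [hμ]; exact map_conj' e _ T₂ hT₂ h₂
    · rw [hμ]; exact map_conj' e _ T₃ hT₃ h₃
    · rw [hcost₀, hμ, lintegral_monge_map]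
      simpa using hlt

end transfer

/-- It suffices to prove the statement in any `d`-dimensional real inner product space. -/
theorem goal_euclidean_of_model (M : Type*) [NormedAddCommGroup M] [InnerProductSpace ℝ M]
    [FiniteDimensional ℝ M] [MeasurableSpace M] [BorelSpace M] (d : ℕ)
    (hd : Module.finrank ℝ M = d) (s : ℝ) (h : Goal M s) :
    Goal (EuclideanSpace ℝ (Fin d)) s := by
  subst hd
  exact Goal.transfer (stdOrthonormalBasis ℝ M).repr h

/-- `Goal (EuclideanSpace ℝ (Fin d)) s` is literally the body of the frozen statement S0175. -/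
theorem goal_euclidean_iff (d : ℕ) (s : ℝ) :
    Goal (EuclideanSpace ℝ (Fin d)) s ↔
    ∃ ρ : EuclideanSpace ℝ (Fin d) → ℝ, (∀ x, 0 ≤ ρ x) ∧ ContDiff ℝ ∞ ρ ∧ HasCompactSupport ρ ∧
      ContDiff ℝ ∞ (fun x => Real.sqrt (ρ x)) ∧ ∫ x, ρ x = 1 ∧
      ∃ π₀ : Measure (EuclideanSpace ℝ (Fin d) × EuclideanSpace ℝ (Fin d) × EuclideanSpace ℝ (Fin d)),
        IsCoupling₃ (measOfDensity ρ) π₀ ∧ ∫⁻ p, tripleCost s p ∂π₀ < ⊤ ∧
        (∀ π : Measure (EuclideanSpace ℝ (Fin d) × EuclideanSpace ℝ (Fin d) × EuclideanSpace ℝ (Fin d)), IsCoupling₃ (measOfDensity ρ) π →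
          ∫⁻ p, tripleCost s p ∂π₀ ≤ ∫⁻ p, tripleCost s p ∂π) ∧
        (∀ T₂ T₃ : EuclideanSpace ℝ (Fin d) → EuclideanSpace ℝ (Fin d), Measurable T₂ → Measurable T₃ →
          (measOfDensity ρ).map T₂ = measOfDensity ρ → (measOfDensity ρ).map T₃ = measOfDensity ρ →
          ∫⁻ p, tripleCost s p ∂π₀ < ∫⁻ x, tripleCost s (x, T₂ x, T₃ x) ∂(measOfDensity ρ)) ∧
        (∀ ε : ℝ≥0∞, 0 < ε → ∃ T₂ T₃ : EuclideanSpace ℝ (Fin d) → EuclideanSpace ℝ (Fin d), Measurable T₂ ∧ Measurable T₃ ∧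
          (measOfDensity ρ).map T₂ = measOfDensity ρ ∧ (measOfDensity ρ).map T₃ = measOfDensity ρ ∧
          ∫⁻ x, tripleCost s (x, T₂ x, T₃ x) ∂(measOfDensity ρ) < ∫⁻ p, tripleCost s p ∂π₀ + ε) :=
  Iff.rfl

/-! ### Dimensions of the usual model spaces -/

lemma finrank_prodLp (U V : Type*) [NormedAddCommGroup U] [InnerProductSpace ℝ U]
    [FiniteDimensional ℝ U] [NormedAddCommGroup V] [InnerProductSpace ℝ V]
    [FiniteDimensional ℝ V] :
    Module.finrank ℝ (WithLp 2 (U × V)) = Module.finrank ℝ U + Module.finrank ℝ V := by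
  rw [LinearEquiv.finrank_eq (WithLp.linearEquiv 2 ℝ (U × V)), Module.finrank_prod]

/-- `ℝ² × ℝᵏ` (with the `L²` product norm) has dimension `k + 2`. -/
lemma finrank_model_euclidean (k : ℕ) :
    Module.finrank ℝ (WithLp 2 (EuclideanSpace ℝ (Fin 2) × EuclideanSpace ℝ (Fin k))) = k + 2 := by
  rw [finrank_prodLp]; simp [add_comm]

/-- `ℂ × ℝᵏ` (with the `L²` product norm) has dimension `k + 2`. -/
lemma finrank_model_complex (k : ℕ) :
    Module.finrank ℝ (WithLp 2 (ℂ × EuclideanSpace ℝ (Fin k))) = k + 2 := by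
  rw [finrank_prodLp]; simp [add_comm]

/-- Model `ℝ² × ℝ^(d-2)`: it suffices to prove the statement there. -/
theorem goal_of_model_euclidean (d : ℕ) (hd : 2 ≤ d) (s : ℝ)
    (h : Goal (WithLp 2 (EuclideanSpace ℝ (Fin 2) × EuclideanSpace ℝ (Fin (d - 2)))) s) :
    Goal (EuclideanSpace ℝ (Fin d)) s :=
  goal_euclidean_of_model _ d (by rw [finrank_model_euclidean]; omega) s h

/-- Model `ℂ × ℝ^(d-2)`: it suffices to prove the statement there. -/
theorem goal_of_model_complex (d : ℕ) (hd : 2 ≤ d) (s : ℝ)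
    (h : Goal (WithLp 2 (ℂ × EuclideanSpace ℝ (Fin (d - 2)))) s) :
    Goal (EuclideanSpace ℝ (Fin d)) s :=
  goal_euclidean_of_model _ d (by rw [finrank_model_complex]; omega) s h

end Crest.Agent.Helper52.OT3
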